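import Vale.Agent.P111.Main
import Vale.Agent.P111.KConv

namespace Vale.Agent.Results.P111.CotypeCotype

open Vale.Agent.P111

theorem result {X : Type*} [NormedAddCommGroup X] [NormedSpace ℝ X] [CompleteSpace X]
    (hA : HasBAP X ∨ HasAP X) {q r : ℝ} (hq : 2 ≤ q) (hr : 2 ≤ r) (hX : HasCotype X q)
    (hD : HasCotype (StrongDual ℝ X) r) :
    KConvex X ∧ ∃ p : ℝ, 1 < p ∧ p ≤ 2 ∧ HasType X p := by
  have hAP : HasAP X := hA.elim HasBAP.ap id
  obtain ⟨C, ρ, hC, h1, h2, hW⟩ := walsh_of_cotype hAP (by linarith) (by linarith) hX hD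
  exact ⟨kconvex_of_walsh hC h1 h2 hW, typeP (kahane X) hC h1 h2 hW⟩

end Vale.Agent.Results.P111.CotypeCotype
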